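import Vale.Agent.P273.H214.WCut2

/-!
# P273, row ASY1 (helper225): the primitive which is cut off, near a pair of close roots

Item (C) of the neck cut-offs.  The two roots of the pair are `e + s` and `e - s`, the other four
roots stay at distance `dl` from `e`.  On the disc of the cut-off at the root `e + s` the odd
primitive of `(a0 + a1 x) dx / y` is bounded by `|a0 + a1 e| + |a1| |s|`.
-/

namespace Vale.Agent.P273.H225.EWn

open scoped ContDiff Topology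
open Set Filter MeasureTheory Finset
open H214

noncomputable section

/-- A root `b j` with one close root `b j'` and four far ones. -/
structure Pair (b : Bs) (j j' : Fin 6) (e s : ℂ) (dl : ℝ) : Prop where
  inj : b ∈ Cf
  ne : j' ≠ j
  bj : b j = e + s
  bj' : b j' = e - s
  dl0 : 0 < dl
  small : ‖s‖ ≤ dl / 2
  far : ∀ i, i ≠ j → i ≠ j' → dl ≤ ‖b i - e‖

variable {b : Bs} {j j' : Fin 6} {e s : ℂ} {dl : ℝ}

theorem Pair.dist (h : Pair b j j' e s dl) : ‖b j' - b j‖ = 2 * ‖s‖ := by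
  rw [h.bj, h.bj', show e - s - (e + s) = (-2 : ℂ) * s by ring, norm_mul]
  simp

theorem Pair.s_pos (h : Pair b j j' e s dl) : 0 < ‖s‖ := by
  have h1 : b j' ≠ b j := fun h2 => h.ne (h.inj h2)
  have h2 : 0 < ‖b j' - b j‖ := norm_pos_iff.2 (sub_ne_zero.2 h1)
  rw [h.dist] at h2
  linarith

theorem Pair.far' (h : Pair b j j' e s dl) {i : Fin 6} (hi : i ≠ j) (hi' : i ≠ j') :
    dl / 2 ≤ ‖b i - b j‖ := by
  have h1 := h.far i hi hi'
  have h2 : ‖b i - e‖ ≤ ‖b i - b j‖ + ‖s‖ := by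
    have h3 : b i - e = (b i - b j) + s := by rw [h.bj]; ring
    rw [h3]; exact norm_add_le _ _
  linarith [h.small]

theorem Pair.lt_s (h : Pair b j j' e s dl) {x : ℂ} (hx : (b, x) ∈ Dj j) : ‖x - b j‖ < ‖s‖ := by
  have h1 := hx j' h.ne
  simp only at h1
  rw [h.dist] at h1
  linarith

theorem Pair.mem_Dj (h : Pair b j j' e s dl) {x : ℂ} (hx : 32 * ‖x - b j‖ ^ 2 ≤ hh b j) :
    (b, x) ∈ Dj j := by
  refine mem_Dj_of_hh h.inj ?_
  have h1 := hh_pos h.inj j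
  nlinarith [sq_nonneg ‖x - b j‖]

/-- the product of the other distances -/
theorem Pair.prod_ge (h : Pair b j j' e s dl) :
    ‖s‖ * (dl / 4) ^ 4 ≤ ∏ i ∈ univ.erase j, (‖b i - b j‖ / 2) := by
  have h1 : j' ∈ univ.erase j := Finset.mem_erase.2 ⟨h.ne, mem_univ _⟩
  have hd := h.dl0
  rw [← Finset.mul_prod_erase _ _ h1, h.dist, show 2 * ‖s‖ / 2 = ‖s‖ by ring]
  refine mul_le_mul_of_nonneg_left ?_ (norm_nonneg _)
  have hc : ((univ.erase j).erase j').card = 4 := by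
    rw [Finset.card_erase_of_mem h1, Finset.card_erase_of_mem (mem_univ j)]; simp
  calc (dl / 4) ^ 4 = ∏ _i ∈ (univ.erase j).erase j', (dl / 4) := by
        rw [Finset.prod_const, hc]
    _ ≤ _ := by
        refine Finset.prod_le_prod (fun i _ => by positivity) fun i hi => ?_
        obtain ⟨h2, h3⟩ := Finset.mem_erase.1 hi
        have := h.far' (Finset.mem_erase.1 h3).1 h2
        linarith

/-- the first factor -/
theorem Pair.ratio_le (h : Pair b j j' e s dl) {x y : ℂ} (hx : (b, x) ∈ Dj j)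
    (hy : y ^ 2 = ∏ i, (x - b i)) : ‖x - b j‖ / ‖y‖ ≤ 16 / dl ^ 2 := by
  have hd := h.dl0
  have hs := h.s_pos
  have h1 := sq_div_le hx hy
  have h2 : ‖x - b j‖ / (∏ i ∈ univ.erase j, (‖b i - b j‖ / 2)) ≤
      ‖s‖ / (‖s‖ * (dl / 4) ^ 4) := by
    refine div_le_div₀ (norm_nonneg _) (h.lt_s hx).le (by positivity) h.prod_ge
  have h3 : ‖s‖ / (‖s‖ * (dl / 4) ^ 4) = (16 / dl ^ 2) ^ 2 := by
    field_simp; norm_num
  refine (sq_le_sq₀ (by positivity) (by positivity)).1 ?_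
  rw [← h3]
  exact h1.trans h2

/-- the centred integrand -/
theorem Qj_sub {x : ℂ} (hD : (b, x) ∈ Dj j) (e : ℂ) :
    Qj 1 j (b, x) - e * Qj 0 j (b, x) =
      2 * ∫ r in (0 : ℝ)..1, Pj j (b, x) * ((seg j (b, x) r - e) / Pj j (b, seg j (b, x) r)) := by
  have hc : ∀ k, ContinuousOn (fun r : ℝ => intg k j ((b, x), r)) (Set.uIcc (0 : ℝ) 1) := by
    intro k r hr
    rw [Set.uIcc_of_le zero_le_one] at hr
    have h1 : ContDiffAt ℝ ∞ (intg k j) ((b, x), r) :=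
      (contDiffOn_intg k j).contDiffAt ((isOpen_Wj j).mem_nhds (seg_mem hD hr))
    have h2 : ContinuousAt (fun r : ℝ => (((b, x), r) : (Bs × ℂ) × ℝ)) r := by fun_prop
    exact (ContinuousAt.comp (g := intg k j) h1.continuousAt h2).continuousWithinAt
  have h0 := (hc 0).intervalIntegrable (μ := volume)
  have h1 := (hc 1).intervalIntegrable (μ := volume)
  have e1 : Qj 1 j (b, x) - e * Qj 0 j (b, x) =
      2 * (Pj j (b, x) * ((∫ r in (0 : ℝ)..1, intg 1 j ((b, x), r)) -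
        e * ∫ r in (0 : ℝ)..1, intg 0 j ((b, x), r))) := by
    unfold Qj; ring
  rw [e1, ← intervalIntegral.integral_const_mul, ← intervalIntegral.integral_sub h1
    (h0.const_mul e), ← intervalIntegral.integral_const_mul]
  congr 1
  refine intervalIntegral.integral_congr fun r _ => ?_
  simp only [intg, pow_one, pow_zero]
  ring

theorem Pair.norm_Qj_sub_le (h : Pair b j j' e s dl) {x : ℂ} (hD : (b, x) ∈ Dj j) :
    ‖Qj 1 j (b, x) - e * Qj 0 j (b, x)‖ ≤ 64 * ‖s‖ := by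
  have h2 : ‖∫ r in (0 : ℝ)..1, Pj j (b, x) * ((seg j (b, x) r - e) / Pj j (b, seg j (b, x) r))‖ ≤
      (32 * ‖s‖) * |1 - 0| := by
    refine intervalIntegral.norm_integral_le_of_norm_le_const fun r hr => ?_
    rw [Set.uIoc_of_le zero_le_one] at hr
    have hr' : r ∈ Icc (0 : ℝ) 1 := ⟨hr.1.le, hr.2⟩
    have h3 := norm_intg_le 0 hD hr'
    have h4 : ‖seg j (b, x) r - e‖ ≤ 2 * ‖s‖ := by
      have h5 : seg j (b, x) r - e = s + ((r ^ 2 : ℝ) : ℂ) * (x - b j) := by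
        simp only [seg]; rw [h.bj]; push_cast; ring
      have h6 : (0 : ℝ) ≤ r ^ 2 := sq_nonneg r
      have h7 : r ^ 2 ≤ 1 := pow_le_one₀ hr'.1 hr'.2
      rw [h5]
      calc _ ≤ ‖s‖ + ‖((r ^ 2 : ℝ) : ℂ) * (x - b j)‖ := norm_add_le _ _
        _ = ‖s‖ + r ^ 2 * ‖x - b j‖ := by
            rw [norm_mul, Complex.norm_real, Real.norm_eq_abs, abs_of_nonneg h6]
        _ ≤ ‖s‖ + 1 * ‖s‖ := by
            gcongr
            exact (h.lt_s hD).le
        _ = _ := by ring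
    have h8 : Pj j (b, x) * ((seg j (b, x) r - e) / Pj j (b, seg j (b, x) r)) =
        (seg j (b, x) r - e) * (Pj j (b, x) * intg 0 j ((b, x), r)) := by
      simp only [intg, pow_zero]; ring
    rw [h8, norm_mul, norm_mul]
    simp only [pow_zero, mul_one] at h3
    calc _ ≤ (2 * ‖s‖) * 16 := mul_le_mul h4 h3 (by positivity) (by positivity)
      _ = _ := by ring
  rw [Qj_sub hD e, norm_mul]
  simp only [sub_zero, abs_one, mul_one] at h2
  have : ‖(2 : ℂ)‖ = 2 := by simp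
  rw [this]
  linarith

/-- the first integral is bounded -/
theorem Pair.norm_E0_le (h : Pair b j j' e s dl) {x y : ℂ} (hD : (b, x) ∈ Dj j)
    (hy : y ^ 2 = ∏ i, (x - b i)) : ‖EWc 0 b j x y‖ ≤ 512 / dl ^ 2 := by
  have hd := h.dl0
  have h1 := norm_Qj_le 0 hD
  simp only [pow_zero, mul_one] at h1
  rw [EWc, norm_mul, norm_div]
  calc _ ≤ 16 / dl ^ 2 * 32 :=
        mul_le_mul (h.ratio_le hD hy) h1 (norm_nonneg _) (by positivity)
    _ = _ := by ring

/-- the centred second integral is small -/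
theorem Pair.norm_E1_sub_le (h : Pair b j j' e s dl) {x y : ℂ} (hD : (b, x) ∈ Dj j)
    (hy : y ^ 2 = ∏ i, (x - b i)) :
    ‖EWc 1 b j x y - e * EWc 0 b j x y‖ ≤ 1024 / dl ^ 2 * ‖s‖ := by
  have hd := h.dl0
  have h1 : EWc 1 b j x y - e * EWc 0 b j x y =
      (x - b j) / y * (Qj 1 j (b, x) - e * Qj 0 j (b, x)) := by
    unfold EWc; ring
  rw [h1, norm_mul, norm_div]
  calc _ ≤ 16 / dl ^ 2 * (64 * ‖s‖) :=
        mul_le_mul (h.ratio_le hD hy) (h.norm_Qj_sub_le hD) (norm_nonneg _) (by positivity)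
    _ = _ := by ring

/-- **(C), scalar form.** -/
theorem EW_neck (h : Pair b j j' e s dl) {x y : ℂ} (hx : 32 * ‖x - b j‖ ^ 2 ≤ hh b j)
    (hy : y ^ 2 = ∏ i, (x - b i)) (a0 a1 : ℂ) :
    ‖a0 * EWc 0 b j x y + a1 * EWc 1 b j x y‖ ≤
      1024 / dl ^ 2 * (‖a0 + a1 * e‖ + ‖a1‖ * ‖s‖) := by
  have hd := h.dl0
  have hD := h.mem_Dj hx
  have h1 : a0 * EWc 0 b j x y + a1 * EWc 1 b j x y =
      (a0 + a1 * e) * EWc 0 b j x y + a1 * (EWc 1 b j x y - e * EWc 0 b j x y) := by ring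
  have h2 : ‖(a0 + a1 * e) * EWc 0 b j x y‖ ≤ ‖a0 + a1 * e‖ * (1024 / dl ^ 2) := by
    rw [norm_mul]
    refine mul_le_mul_of_nonneg_left ((h.norm_E0_le hD hy).trans ?_) (norm_nonneg _)
    gcongr
    norm_num
  have h3 : ‖a1 * (EWc 1 b j x y - e * EWc 0 b j x y)‖ ≤ ‖a1‖ * (1024 / dl ^ 2 * ‖s‖) := by
    rw [norm_mul]
    exact mul_le_mul_of_nonneg_left (h.norm_E1_sub_le hD hy) (norm_nonneg _)
  rw [h1]
  calc _ ≤ _ := norm_add_le _ _
    _ ≤ ‖a0 + a1 * e‖ * (1024 / dl ^ 2) + ‖a1‖ * (1024 / dl ^ 2 * ‖s‖) := add_le_add h2 h3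
    _ = _ := by ring

/-- **(C), for a linear form on the pair of integrals.** `κ` bounds the form on the line of
`(1, e)` (the coefficient of the logarithm). -/
theorem EWv_neck {H : Type*} [NormedAddCommGroup H] [NormedSpace ℝ H]
    (h : Pair b j j' e s dl) {x y : ℂ} (hx : 32 * ‖x - b j‖ ^ 2 ≤ hh b j)
    (hy : y ^ 2 = ∏ i, (x - b i)) (A : ℂ × ℂ →L[ℝ] H) {κ : ℝ} (hκ : 0 ≤ κ)
    (hA : ∀ z : ℂ, ‖A (z, e * z)‖ ≤ κ * ‖z‖) :
    ‖A (EWc 0 b j x y, EWc 1 b j x y)‖ ≤ 1024 / dl ^ 2 * (κ + ‖A‖ * ‖s‖) := by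
  have hd := h.dl0
  have hD := h.mem_Dj hx
  have h1 : ((EWc 0 b j x y, EWc 1 b j x y) : ℂ × ℂ) =
      (EWc 0 b j x y, e * EWc 0 b j x y) + (0, EWc 1 b j x y - e * EWc 0 b j x y) := by
    ext <;> simp
  have h2 : ‖A (EWc 0 b j x y, e * EWc 0 b j x y)‖ ≤ κ * (1024 / dl ^ 2) := by
    refine (hA _).trans (mul_le_mul_of_nonneg_left ((h.norm_E0_le hD hy).trans ?_) hκ)
    gcongr
    norm_num
  have h3 : ‖A (0, EWc 1 b j x y - e * EWc 0 b j x y)‖ ≤ ‖A‖ * (1024 / dl ^ 2 * ‖s‖) := by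
    refine (A.le_opNorm _).trans (mul_le_mul_of_nonneg_left ?_ (norm_nonneg _))
    rw [Prod.norm_def]
    simp only [norm_zero]
    exact max_le (by positivity) (h.norm_E1_sub_le hD hy)
  rw [h1, map_add]
  calc _ ≤ _ := norm_add_le _ _
    _ ≤ κ * (1024 / dl ^ 2) + ‖A‖ * (1024 / dl ^ 2 * ‖s‖) := add_le_add h2 h3
    _ = _ := by ring

/-- **(C), crude form.** -/
theorem EWv_neck' {H : Type*} [NormedAddCommGroup H] [NormedSpace ℝ H]
    (h : Pair b j j' e s dl) {x y : ℂ} (hx : 32 * ‖x - b j‖ ^ 2 ≤ hh b j)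
    (hy : y ^ 2 = ∏ i, (x - b i)) (A : ℂ × ℂ →L[ℝ] H) :
    ‖A (EWc 0 b j x y, EWc 1 b j x y)‖ ≤ 1024 / dl ^ 2 * (1 + ‖e‖ + ‖s‖) * ‖A‖ := by
  have h1 := EWv_neck h hx hy A (κ := ‖A‖ * (1 + ‖e‖)) (by positivity) fun z => by
    refine (A.le_opNorm _).trans ?_
    rw [mul_assoc]
    refine mul_le_mul_of_nonneg_left ?_ (norm_nonneg _)
    rw [Prod.norm_def]
    refine max_le ?_ ?_
    · simp only
      nlinarith [norm_nonneg z, norm_nonneg e]
    · simp only [norm_mul]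
      nlinarith [norm_nonneg z, norm_nonneg e]
  refine h1.trans (le_of_eq ?_)
  ring

end

end Vale.Agent.P273.H225.EWn
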